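import Vale.Agent.H34.P125.Main

/-!
# P125: Markov type with a small constant forces uniform non-squareness

If a real normed space `X` has Markov type `p > 0` with constant `K` (definition of the problem
file, `MarkovType`), then for all `u, v`
`‖u + v‖ ^ p + ‖u - v‖ ^ p ≤ (4 * K ^ p - 2 ^ (p - 1)) * (‖u‖ ^ p + ‖v‖ ^ p)`,
and if `4 * K ^ p - 2 ^ (p - 1) < 2 ^ p` (i.e. `K < 2 * (3 / 8) ^ (1 / p)`; for `p = 2`:
`K < sqrt (3 / 2)`) then `X` is uniformly non-square.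
-/

namespace Vale.Agent.Results.P125.A_SmallConstant

open Vale.Agent.H34.P125

theorem result {X : Type*} [NormedAddCommGroup X] [NormedSpace ℝ X] (p K : ℝ) (hp : 0 < p)
    (_hK : 0 < K) (hX : MarkovType X p K) :
    (∀ u v : X, ‖u + v‖ ^ p + ‖u - v‖ ^ p ≤
        (4 * K ^ p - 2 ^ (p - 1)) * (‖u‖ ^ p + ‖v‖ ^ p)) ∧
      (∀ u v : X, ‖u‖ ≤ 1 → ‖v‖ ≤ 1 →
        min ‖u + v‖ ‖u - v‖ ≤ (max (4 * K ^ p - 2 ^ (p - 1)) 0) ^ (1 / p)) ∧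
      (4 * K ^ p - 2 ^ (p - 1) < 2 ^ p →
        (max (4 * K ^ p - 2 ^ (p - 1)) 0) ^ (1 / p) < 2 ∧
        ∃ δ > 0, ∀ u v : X, ‖u‖ ≤ 1 → ‖v‖ ≤ 1 →
          ‖(1 / 2 : ℝ) • (u + v)‖ ≤ 1 - δ ∨ ‖(1 / 2 : ℝ) • (u - v)‖ ≤ 1 - δ) :=
  ⟨main_ineq hX, fun u v hu hv => main_min hp hX u v hu hv,
    fun h => ⟨main_bound_lt_two hp h, main_nonsquare hp hX h⟩⟩

end Vale.Agent.Results.P125.A_SmallConstant
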