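import Vale.Agent.H34.P125.NMain

/-!
# P125: Markov type with constant below `2 ^ (1 - 1 / p)` forces J-convexity

If a real normed space `X` has Markov type `p > 0` with constant `K > 0` (definition of the
problem file, `MarkovType`), then for every `n` and all `x_1, ..., x_n` in `X`
`∑_{i ≠ j} (‖x i + x j‖ ^ p + ‖x i - x j‖ ^ p) ≤ (4 * n * K ^ p - 2 ^ p) * ∑ i, ‖x i‖ ^ p`,
and if `K ^ p < 2 ^ (p - 1)` (i.e. `K < 2 ^ (1 - 1 / p)`; for `p = 2`: `K < sqrt 2`) then there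
are `n ≥ 2` and `ε > 0` such that for all `x_1, ..., x_n` in the unit ball one of the sums
`x_1 + ... + x_k - x_(k+1) - ... - x_n` (`1 ≤ k ≤ n`) has norm at most `n * (1 - ε)`.
-/

namespace Vale.Agent.Results.P125.B_JConvex

open Vale.Agent.H34.P125

theorem result {X : Type*} [NormedAddCommGroup X] [NormedSpace ℝ X] (p K : ℝ) (hp : 0 < p)
    (hK : 0 < K) (hX : MarkovType X p K) :
    (∀ (n : ℕ) (x : Fin n → X),
        ∑ i, ∑ j ∈ Finset.univ.erase i, (‖x i + x j‖ ^ p + ‖x i - x j‖ ^ p) ≤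
          (4 * (n : ℝ) * K ^ p - 2 ^ p) * ∑ i, ‖x i‖ ^ p) ∧
      (K ^ p < 2 ^ (p - 1) →
        ∃ n : ℕ, 2 ≤ n ∧ ∃ ε : ℝ, 0 < ε ∧ ∀ x : Fin n → X, (∀ i, ‖x i‖ ≤ 1) →
          ∃ k : Fin n, ‖∑ i, (if i ≤ k then x i else -x i)‖ ≤ (n : ℝ) * (1 - ε)) := by
  refine ⟨fun n x => mainN_ineq hX n x, fun hlt => ?_⟩
  obtain ⟨n, hn, ε, hε, h⟩ := mainN_jconvex hp hK.le hX hlt
  exact ⟨n, hn, ε, hε, h⟩

end Vale.Agent.Results.P125.B_JConvex
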