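import Vale.Agent.H34.P125.NExplicit

/-!
# P125: explicit James bounds from Markov type, for every `n`

If a real normed space `X` has Markov type `p > 0` with constant `K > 0` (definition of the
problem file, `MarkovType`), then
1. for every `n` and all `x_1, ..., x_n` in `X`:
   `∑_{i ≠ j} (‖x i + x j‖ ^ p + ‖x i - x j‖ ^ p) ≤ (4 * n * K ^ p - 2 ^ p) * ∑ i, ‖x i‖ ^ p`;
2. for every `n ≥ 2` and all `x_1, ..., x_n` in the unit ball one of the sums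
   `x_1 + ... + x_k - x_(k+1) - ... - x_n` (`1 ≤ k ≤ n`) has norm at most `n - 2 + ρ_n`, where
   `ρ_n = (max ((4 * n * K ^ p - 2 ^ p) / (2 * (n - 1))) 0) ^ (1 / p)`;
3. `ρ_n < 2` whenever `n ≥ 2` and `K ^ p < 2 ^ (p - 1) * (1 - 1 / (2 * n))`;
4. if `K ^ p < 2 ^ (p - 1)` then there are `n ≥ 2` and `ε > 0` such that for all
   `x_1, ..., x_n` in the unit ball one of these sums has norm at most `n * (1 - ε)`.
-/

namespace Vale.Agent.Results.P125.C_ExplicitJamesBounds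

open Vale.Agent.H34.P125

theorem result {X : Type*} [NormedAddCommGroup X] [NormedSpace ℝ X] (p K : ℝ) (hp : 0 < p)
    (hK : 0 < K) (hX : MarkovType X p K) :
    (∀ (n : ℕ) (x : Fin n → X),
        ∑ i, ∑ j ∈ Finset.univ.erase i, (‖x i + x j‖ ^ p + ‖x i - x j‖ ^ p) ≤
          (4 * (n : ℝ) * K ^ p - 2 ^ p) * ∑ i, ‖x i‖ ^ p) ∧
      (∀ n : ℕ, 2 ≤ n → ∀ x : Fin n → X, (∀ i, ‖x i‖ ≤ 1) →
        ∃ k : Fin n, ‖∑ i, (if i ≤ k then x i else -x i)‖ ≤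
          (n : ℝ) - 2 +
            (max ((4 * (n : ℝ) * K ^ p - 2 ^ p) / (2 * ((n : ℝ) - 1))) 0) ^ (1 / p)) ∧
      (∀ n : ℕ, 2 ≤ n → K ^ p < 2 ^ (p - 1) * (1 - 1 / (2 * (n : ℝ))) →
        (max ((4 * (n : ℝ) * K ^ p - 2 ^ p) / (2 * ((n : ℝ) - 1))) 0) ^ (1 / p) < 2) ∧
      (K ^ p < 2 ^ (p - 1) →
        ∃ n : ℕ, 2 ≤ n ∧ ∃ ε : ℝ, 0 < ε ∧ ∀ x : Fin n → X, (∀ i, ‖x i‖ ≤ 1) →
          ∃ k : Fin n, ‖∑ i, (if i ≤ k then x i else -x i)‖ ≤ (n : ℝ) * (1 - ε)) := by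
  refine ⟨fun n x => mainN_ineq hX n x, fun n hn x hx => james_explicit hp hX n hn x hx,
    fun n hn h => james_radius_lt_two hp n hn h, fun hlt => ?_⟩
  obtain ⟨n, hn, ε, hε, h⟩ := mainN_jconvex hp hK.le hX hlt
  exact ⟨n, hn, ε, hε, h⟩

end Vale.Agent.Results.P125.C_ExplicitJamesBounds
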